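import Vale.Agent.P254.SP.H649.Poi
import Vale.Agent.P254.SP.IfaceB
import Vale.Agent.P254.SP.H127.Field
import Vale.Agent.P254.S.H129.Poi
import Vale.Agent.P254.S.H129.Herm

/-!
# P254, (SP_0): `StmtGap` (second gap of `F e` and the form Cauchy-Schwarz)
-/

open MeasureTheory Filter Matrix
open scoped ENNReal NNReal Topology

noncomputable section

namespace Vale.Agent.P254.SP649

open Vale.Agent.P227.M Vale.Agent.P254.S Vale.Agent.P254.S130 Vale.Agent.P254.SP

variable {n : ℕ}

theorem stmtHermL : StmtHermL := hermL_of Vale.Agent.P254.S129.stmtHerm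

/-- orthogonal change of coordinates preserves the scalar product -/
lemma orth_dot {U : Matrix (Fin n) (Fin n) ℝ} (hU : U * U.transpose = 1) (v w : Fin n → ℝ) :
    ∑ i, (U.transpose.mulVec v) i * (U.transpose.mulVec w) i = ∑ i, v i * w i := by
  have h : (U.transpose.mulVec v) ⬝ᵥ (U.transpose.mulVec w) = v ⬝ᵥ w := by
    rw [Matrix.dotProduct_mulVec, Matrix.vecMul_transpose, Matrix.mulVec_mulVec, hU,
      Matrix.one_mulVec]
  exact h

/-- the components of `F e` -/
def fv (U : E n → Matrix (Fin n) (Fin n) ℝ) (s : E n → Fin n → ℝ) (e : Fin n → ℝ) (i : Fin n)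
    (z : E n) : ℝ := ((FF U s z).mulVec e) i

lemma fv_eq (U : E n → Matrix (Fin n) (Fin n) ℝ) (s : E n → Fin n → ℝ) (e : Fin n → ℝ) (i : Fin n)
    (z : E n) : fv U s e i z = ∑ j, (GG U s z i j - ∑ a, z a * AA U s a i j) * e j := by
  unfold fv FF
  simp only [Matrix.mulVec, dotProduct, Matrix.sub_apply, Matrix.sum_apply, Matrix.smul_apply,
    smul_eq_mul]

section

variable {P : F1} {φ V : E n → ℝ} {a b M κ : ℝ} {U : E n → Matrix (Fin n) (Fin n) ℝ}
  {s : E n → Fin n → ℝ}

lemma bl_lip {f : E n → ℝ} (hf : BL f) : ∃ K : ℝ≥0, LipschitzWith K f := hf.lipschitz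

lemma lip_coord (b : Fin n) : LipschitzWith 1 (fun z : E n => z b) := by
  refine LipschitzWith.of_dist_le_mul fun x y => ?_
  rw [NNReal.coe_one, one_mul, Real.dist_eq, dist_eq_norm]
  have := abs_coord_le (x - y) b
  simpa using this

lemma lip_sum {κ' : Type*} (t : Finset κ') {f : κ' → E n → ℝ}
    (h : ∀ k ∈ t, ∃ K : ℝ≥0, LipschitzWith K (f k)) : ∃ K : ℝ≥0, LipschitzWith K (fun z => ∑ k ∈ t, f k z) := by
  classical
  induction t using Finset.induction_on with
  | empty => exact ⟨0, by simp only [Finset.sum_empty]; exact LipschitzWith.const (0 : ℝ)⟩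
  | insert k t hk ih =>
    obtain ⟨K, hK⟩ := h k (Finset.mem_insert_self _ _)
    obtain ⟨L, hL⟩ := ih fun j hj => h j (Finset.mem_insert_of_mem hj)
    refine ⟨K + L, ?_⟩
    simp only [Finset.sum_insert hk]
    exact hK.add hL

lemma lip_mul_const {f : E n → ℝ} {K : ℝ≥0} (hf : LipschitzWith K f) (c : ℝ) :
    ∃ L : ℝ≥0, LipschitzWith L (fun z => f z * c) := by
  refine ⟨K * Real.nnabs c, LipschitzWith.of_dist_le_mul fun x y => ?_⟩
  have h := hf.dist_le_mul x y
  rw [Real.dist_eq] at h ⊢
  rw [← sub_mul, abs_mul, NNReal.coe_mul, Real.coe_nnabs]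
  calc |f x - f y| * |c| ≤ (K * dist x y) * |c| := mul_le_mul_of_nonneg_right h (abs_nonneg _)
    _ = _ := by ring

lemma fv_lip (h : BP φ V a b M κ) (hF : Fr P φ U s) (e : Fin n → ℝ) (i : Fin n) :
    ∃ K : ℝ≥0, LipschitzWith K (fv U s e i) := by
  have h0 : fv U s e i = fun z => ∑ j, (GG U s z i j - ∑ a, z a * AA U s a i j) * e j :=
    funext fun z => fv_eq U s e i z
  rw [h0]
  refine lip_sum _ fun j _ => ?_
  obtain ⟨K, hK⟩ := bl_lip (SP127.mbl_GG h hF i j)
  obtain ⟨L, hL⟩ := lip_sum (n := n) Finset.univ (f := fun a z => z a * AA U s a i j) fun a _ =>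
    lip_mul_const (lip_coord a) _
  exact lip_mul_const (hK.sub hL) _

lemma GG_ae_diff (h : BP φ V a b M κ) (hF : Fr P φ U s) :
    ∀ᵐ z ∂(gQ n), ∀ i j, DifferentiableAt ℝ (fun y => GG U s y i j) z := by
  simp only [ae_all_iff]
  intro i j
  obtain ⟨K, hK⟩ := bl_lip (SP127.mbl_GG h hF i j)
  exact (LG.of_lipschitz hK).ae_diff

lemma diff_coord (b : Fin n) (z : E n) : DifferentiableAt ℝ (fun z : E n => z b) z :=
  (EuclideanSpace.proj b : E n →L[ℝ] ℝ).differentiableAt

/-- derivative of `F e` -/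
lemma pd_fv {z : E n} (hz : ∀ i j, DifferentiableAt ℝ (fun y => GG U s y i j) z)
    (e : Fin n → ℝ) (i k : Fin n) : pd k (fv U s e i) z = ((Fa U s k z).mulVec e) i := by
  have h0 : fv U s e i = fun z => ∑ j, (GG U s z i j - ∑ a, z a * AA U s a i j) * e j :=
    funext fun z => fv_eq U s e i z
  have hd1 : ∀ a j, DifferentiableAt ℝ (fun z : E n => z a * AA U s a i j) z := fun a j =>
    (diff_coord a z).mul_const _
  have hd2 : ∀ j, DifferentiableAt ℝ (fun z : E n => ∑ a, z a * AA U s a i j) z := fun j =>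
    DifferentiableAt.fun_sum fun a _ => hd1 a j
  have hd3 : ∀ j, DifferentiableAt ℝ (fun z => GG U s z i j - ∑ a, z a * AA U s a i j) z :=
    fun j => (hz i j).sub (hd2 j)
  rw [h0, pd_sum _ fun j _ => (hd3 j).mul_const _]
  simp only [Fa, Matrix.mulVec, dotProduct, Matrix.sub_apply]
  refine Finset.sum_congr rfl fun j _ => ?_
  have e1 : (fun x => (GG U s x i j - ∑ a, x a * AA U s a i j) * e j)
      = fun x => e j * (GG U s x i j - ∑ a, x a * AA U s a i j) := by funext x; ring
  rw [e1, pd_const_mul (hd3 j), pd_sub (hz i j) (hd2 j), pd_sum _ fun a _ => hd1 a j]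
  have e2 : ∀ a, pd k (fun x : E n => x a * AA U s a i j) z = if a = k then AA U s a i j else 0 := by
    intro a
    have e3 : (fun x : E n => x a * AA U s a i j) = fun x => AA U s a i j * x a := by
      funext x; ring
    rw [e3, pd_const_mul (diff_coord a z), pd_coord]
    split_ifs <;> simp
  simp only [e2, Finset.sum_ite_eq', Finset.mem_univ, if_true]
  unfold pdM
  ring

lemma int_pdM (h : BP φ V a b M κ) (hF : Fr P φ U s) (k i j : Fin n) :
    Integrable (fun z => pdM k (GG U s) z i j) (gQ n) := by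
  obtain ⟨K, hK⟩ := bl_lip (SP127.mbl_GG h hF i j)
  exact (LG.of_lipschitz hK).integrable_pd k

lemma int_coord_zero (a : Fin n) : ∫ z, z a ∂(gQ n) = 0 := by
  have h := (LG.const (n := n) 1).ibp a
  simp only [mul_one] at h
  rw [h]
  have : (fun x : E n => pd a (fun _ : E n => (1 : ℝ)) x) = fun _ => 0 :=
    funext fun x => pd_const 1 x a
  rw [this]
  simp

/-- `E F e = 0` -/
lemma ex_fv (h : BP φ V a b M κ) (hF : Fr P φ U s) (h0 : ∀ i j, Ex Q (fun z => GG U s z i j) = 0)
    (e : Fin n → ℝ) (i : Fin n) : Ex Q (fv U s e i) = 0 := by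
  have h1 : fv U s e i = fun z => ∑ j, (GG U s z i j - ∑ a, z a * AA U s a i j) * e j :=
    funext fun z => fv_eq U s e i z
  have iG : ∀ j, Integrable (fun z => GG U s z i j) (gQ n) := fun j => by
    obtain ⟨K, hK⟩ := bl_lip (SP127.mbl_GG h hF i j)
    exact (LG.of_lipschitz hK).integrable
  have iC : ∀ a j, Integrable (fun z : E n => z a * AA U s a i j) (gQ n) := fun a j =>
    (LG.coord a).integrable.mul_const _
  rw [h1, Ex_eq, integral_finsetSum]
  · refine Finset.sum_eq_zero fun j _ => ?_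
    rw [integral_mul_const, integral_sub (iG j) (integrable_finsetSum _ fun a _ => iC a j),
      integral_finsetSum _ fun a _ => iC a j]
    have e1 : ∫ z, GG U s z i j ∂(gQ n) = 0 := by rw [← Ex_eq]; exact h0 i j
    rw [e1]
    simp only [integral_mul_const, int_coord_zero, zero_mul, Finset.sum_const_zero, sub_zero]
  · intro j _
    exact ((iG j).sub (integrable_finsetSum _ fun a _ => iC a j)).mul_const _

/-- `E ∂_k F e = 0` -/
lemma ex_pd_fv (h : BP φ V a b M κ) (hF : Fr P φ U s) (e : Fin n → ℝ) (i k : Fin n) :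
    Ex Q (fun z => pd k (fv U s e i) z) = 0 := by
  rw [Ex_eq]
  have h1 : ∫ z, pd k (fv U s e i) z ∂(gQ n)
      = ∫ z, ∑ j, (pdM k (GG U s) z i j - AA U s k i j) * e j ∂(gQ n) := by
    refine integral_congr_ae ?_
    filter_upwards [GG_ae_diff h hF] with z hz
    rw [pd_fv hz]
    simp only [Fa, Matrix.mulVec, dotProduct, Matrix.sub_apply]
  have ip := gQ_prob (n := n)
  rw [h1, integral_finsetSum]
  · refine Finset.sum_eq_zero fun j _ => ?_
    rw [integral_mul_const, integral_sub (int_pdM h hF k i j) (integrable_const _)]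
    have e1 : ∫ z, pdM k (GG U s) z i j ∂(gQ n) = AA U s k i j := by
      rw [← Ex_eq]
      rfl
    rw [e1]
    simp
  · intro j _
    exact ((int_pdM h hF k i j).sub (integrable_const _)).mul_const _

/-- `Σ_i col(F)_i² = Σ_i (F e)_i²` -/
lemma col_sq (hF : Fr P φ U s) (e : Fin n → ℝ) (z : E n) :
    ∑ i, col U (FF U s) e z i ^ 2 = ∑ i, fv U s e i z ^ 2 := by
  have := orth_dot (hF.orth z) ((FF U s z).mulVec e) ((FF U s z).mulVec e)
  simp only [← sq] at this
  exact this

lemma colF_sq (hF : Fr P φ U s) (e : Fin n → ℝ) (k : Fin n) (z : E n) :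
    ∑ i, col U (Fa U s k) e z i ^ 2 = ∑ i, ((Fa U s k z).mulVec e) i ^ 2 := by
  have := orth_dot (hF.orth z) ((Fa U s k z).mulVec e) ((Fa U s k z).mulVec e)
  simp only [← sq] at this
  exact this

lemma ex_grad_sq (h : BP φ V a b M κ) (hF : Fr P φ U s) (e : Fin n → ℝ) :
    Ex Q (fun z => ∑ k, ∑ i, col U (Fa U s k) e z i ^ 2)
      = ∑ i, Ex Q (fun z => ∑ k, pd k (fv U s e i) z ^ 2) := by
  simp only [Ex_eq]
  rw [← integral_finsetSum]
  · refine integral_congr_ae ?_
    filter_upwards [GG_ae_diff h hF] with z hz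
    rw [Finset.sum_comm (s := (Finset.univ : Finset (Fin n))) (t := Finset.univ)
      (f := fun i k => pd k (fv U s e i) z ^ 2)]
    refine Finset.sum_congr rfl fun k _ => ?_
    rw [colF_sq hF]
    exact Finset.sum_congr rfl fun i _ => by rw [pd_fv hz]
  · intro i _
    obtain ⟨K, hK⟩ := fv_lip h hF e i
    have := int_pd_mul (LG.of_lipschitz hK) (LG.of_lipschitz hK)
    simpa only [← sq] using this

lemma ex_sq (h : BP φ V a b M κ) (hF : Fr P φ U s) (e : Fin n → ℝ) :
    Ex Q (fun z => ∑ i, col U (FF U s) e z i ^ 2) = ∑ i, Ex Q (fun z => fv U s e i z ^ 2) := by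
  simp only [Ex_eq, col_sq hF]
  rw [integral_finsetSum]
  intro i _
  obtain ⟨K, hK⟩ := fv_lip h hF e i
  have := int_mul (LG.of_lipschitz hK) (LG.of_lipschitz hK)
  simpa only [← sq] using this

theorem stmtGap : StmtGap := by
  intro P n φ V a b M κ U s hD h0 e
  have h := hD.bp
  have hF := hD.fr
  choose K hK using fun i => fv_lip h hF e i
  constructor
  · rw [ex_sq h hF, ex_grad_sq h hF, Finset.mul_sum]
    refine Finset.sum_le_sum fun i _ => ?_
    have h1 := stmtHermL n (fv U s e i) (K i) (hK i)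
    have h2 : ∀ k, Ex Q (fun z => pd k (fv U s e i) z) = 0 := fun k => ex_pd_fv h hF e i k
    simp only [h2, ex_fv h hF h0 e i] at h1
    simp only [ne_eq, OfNat.ofNat_ne_zero, not_false_eq_true, zero_pow, Finset.sum_const_zero,
      mul_zero, zero_add, sub_zero] at h1
    linarith
  · intro w hw
    obtain ⟨L, hL⟩ := hw
    have hwl : ∀ i, LipschitzWith L (w i) := fun i => (hL i).1
    have hcs := Bf_cs Vale.Agent.P254.S129.stmtPoi Finset.univ hK hwl
    have lf : ∀ i, LG (fv U s e i) := fun i => LG.of_lipschitz (hK i)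
    have lw : ∀ i, LG (w i) := fun i => LG.of_lipschitz (hwl i)
    -- the three sums
    have e1 : ∑ i, Bf (fv U s e i) (w i)
        = Ex Q (fun z => ∑ k, ∑ i, col U (Fa U s k) e z i * fr U (fun j => pd k (w j)) z i)
          - Ex Q (fun z => ∑ i, col U (FF U s) e z i * fr U w z i) := by
      have a1 : Ex Q (fun z => ∑ k, ∑ i, col U (Fa U s k) e z i * fr U (fun j => pd k (w j)) z i)
          = ∑ i, Ex Q (fun z => ∑ k, pd k (fv U s e i) z * pd k (w i) z) := by
        simp only [Ex_eq]
        rw [← integral_finsetSum _ fun i _ => int_pd_mul (lf i) (lw i)]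
        refine integral_congr_ae ?_
        filter_upwards [GG_ae_diff h hF] with z hz
        rw [Finset.sum_comm (s := (Finset.univ : Finset (Fin n))) (t := Finset.univ)
          (f := fun i k => pd k (fv U s e i) z * pd k (w i) z)]
        refine Finset.sum_congr rfl fun k _ => ?_
        have := orth_dot (hF.orth z) ((Fa U s k z).mulVec e) (fun j => pd k (w j) z)
        simp only [pd_fv hz]
        exact this
      have a2 : Ex Q (fun z => ∑ i, col U (FF U s) e z i * fr U w z i)
          = ∑ i, Ex Q (fun z => fv U s e i z * w i z) := by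
        simp only [Ex_eq]
        rw [← integral_finsetSum _ fun i _ => int_mul (lf i) (lw i)]
        refine integral_congr_ae (ae_of_all _ fun z => ?_)
        exact orth_dot (hF.orth z) ((FF U s z).mulVec e) (fun j => w j z)
      rw [a1, a2, ← Finset.sum_sub_distrib]
      refine Finset.sum_congr rfl fun i _ => ?_
      unfold Bf
      rw [ex_fv h hF h0 e i, zero_mul, sub_zero]
    have e2 : ∑ i, Bf (fv U s e i) (fv U s e i)
        = Ex Q (fun z => ∑ k, ∑ i, col U (Fa U s k) e z i ^ 2)
          - Ex Q (fun z => ∑ i, col U (FF U s) e z i ^ 2) := by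
      rw [ex_sq h hF, ex_grad_sq h hF, ← Finset.sum_sub_distrib]
      refine Finset.sum_congr rfl fun i _ => ?_
      unfold Bf
      rw [ex_fv h hF h0 e i]
      simp only [sq, mul_zero, sub_zero]
    have e3 : ∑ i, Bf (w i) (w i) ≤ Ex Q (fun z => ∑ k, ∑ i, pd k (w i) z ^ 2) := by
      have a1 : Ex Q (fun z => ∑ k, ∑ i, pd k (w i) z ^ 2)
          = ∑ i, Ex Q (fun z => ∑ k, pd k (w i) z * pd k (w i) z) := by
        simp only [Ex_eq]
        rw [← integral_finsetSum _ fun i _ => int_pd_mul (lw i) (lw i)]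
        refine integral_congr_ae (ae_of_all _ fun z => ?_)
        show ∑ k, ∑ i, pd k (w i) z ^ 2 = ∑ i, ∑ k, pd k (w i) z * pd k (w i) z
        rw [Finset.sum_comm]
        exact Finset.sum_congr rfl fun i _ => Finset.sum_congr rfl fun k _ => by ring
      rw [a1]
      refine Finset.sum_le_sum fun i _ => ?_
      unfold Bf
      have hv : (Ex Q (w i)) ^ 2 ≤ Ex Q (fun z => w i z * w i z) := by
        have ip := gQ_prob (n := n)
        have i1 := (lw i).integrable
        have i2 := int_mul (lw i) (lw i)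
        simp only [Ex_eq]
        set m := ∫ z, w i z ∂(gQ n) with hm
        have hn : 0 ≤ ∫ z, (w i z - m) ^ 2 ∂(gQ n) := integral_nonneg fun z => sq_nonneg _
        have he : ∫ z, (w i z - m) ^ 2 ∂(gQ n) = ∫ z, w i z * w i z ∂(gQ n) - m ^ 2 := by
          have : (fun z => (w i z - m) ^ 2)
              = fun z => w i z * w i z + (-(2 * m)) * w i z + 1 * (m ^ 2) := by
            funext z; ring
          rw [this, int_comb3 (c := fun _ => m ^ 2) i2 i1 (integrable_const _)]
          simp
          ring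
        linarith
      nlinarith
    rw [← e1, ← e2]
    refine hcs.trans (mul_le_mul_of_nonneg_left e3 ?_)
    exact Finset.sum_nonneg fun i _ => Bf_nonneg Vale.Agent.P254.S129.stmtPoi (hK i)

end

end Vale.Agent.P254.SP649
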