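import Vale.Agent.P254.SP.H649.Moll
import Vale.Agent.P254.SP.IfaceA

/-!
# P254, (SP_0): second order Poincaré for Lipschitz functions, the psd form `B`, integration by parts
-/

open MeasureTheory Filter
open scoped ENNReal NNReal Topology

noncomputable section

namespace Vale.Agent.P254.SP649

open Vale.Agent.P227.M Vale.Agent.P254.S Vale.Agent.P254.S130 Vale.Agent.P254.SP

variable {n : ℕ}

/-- **SP-IBP** -/
theorem stmtIBP2 : StmtIBP2 := by
  intro n f h K hf hh i
  have h1 : LG f := LG.of_lipschitz hf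
  have h2 : LG h := LG.of_lipschitz hh
  rw [Ex_eq, Ex_eq, (h1.mul h2).ibp i]
  refine integral_congr_ae ?_
  filter_upwards [h1.ae_diff, h2.ae_diff] with x d1 d2
  rw [pd_mul d1 d2]
  ring

/-- dominated convergence for `gQ` with a polynomial bound -/
lemma tendsto_gQ {F : ℕ → E n → ℝ} {G : E n → ℝ} {C : ℝ} {k : ℕ}
    (hm : ∀ m, AEStronglyMeasurable (F m) (gQ n))
    (hb : ∀ m x, |F m x| ≤ C * (1 + ‖x‖) ^ k)
    (hl : ∀ᵐ x ∂(gQ n), Tendsto (fun m => F m x) atTop (𝓝 (G x))) :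
    Tendsto (fun m => ∫ x, F m x ∂(gQ n)) atTop (𝓝 (∫ x, G x ∂(gQ n))) := by
  refine tendsto_integral_of_dominated_convergence (fun x => C * (1 + ‖x‖) ^ k) hm ?_
    (fun m => ae_of_all _ fun x => by rw [Real.norm_eq_abs]; exact hb m x) hl
  rw [integrable_gQ_iff]
  have := (int_w_Q (n := n) k).const_mul C
  refine this.congr (ae_of_all _ fun x => ?_)
  ring

theorem hermL_of (hH : StmtHerm) : StmtHermL := by
  intro n f K hf
  have hK := K.coe_nonneg
  have hcf := hf.continuous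
  have key : ∀ m, Ex Q (fun z => mol f m z ^ 2) - (Ex Q (mol f m)) ^ 2
      ≤ 1 / 2 * ∑ i, (Ex Q (fun z => pd i (mol f m) z)) ^ 2
        + 1 / 2 * Ex Q (fun z => ∑ i, (pd i (mol f m) z) ^ 2) := fun m =>
    hH n (mol f m) K ((mol_contDiff hcf m).of_le (by exact_mod_cast le_top))
      (fun x => norm_fderiv_le_of_lipschitz ℝ (mol_lip hf m))
  have hcm : ∀ m, Continuous (mol f m) := fun m => (mol_contDiff hcf m).continuous
  have hpd : ∀ᵐ x ∂(gQ n), ∀ i, Tendsto (fun m => pd i (mol f m) x) atTop (𝓝 (pd i f x)) :=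
    gQ_ac (mol_pd_tendsto hf)
  have hb : ∀ m (x : E n), |mol f m x| ≤ (|f 0| + K + K) * (1 + ‖x‖) ^ 1 := fun m x => by
    refine (mol_bound hf m x).trans ?_
    rw [pow_one]
    nlinarith [norm_nonneg x, mul_nonneg hK (norm_nonneg x)]
  have hpb : ∀ m i (x : E n), |pd i (mol f m) x| ≤ K := fun m i x => pd_le_lip (mol_lip hf m) i x
  have t1 : Tendsto (fun m => Ex Q (fun z => mol f m z ^ 2)) atTop (𝓝 (Ex Q (fun z => f z ^ 2))) := by
    simp only [Ex_eq]
    refine tendsto_gQ (C := (|f 0| + K + K) ^ 2) (k := 2)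
      (fun m => ((hcm m).pow 2).aestronglyMeasurable) (fun m x => ?_)
      (ae_of_all _ fun x => (mol_tendsto hcf x).pow 2)
    rw [abs_pow, ← mul_pow]
    refine pow_le_pow_left₀ (abs_nonneg _) ?_ 2
    simpa using hb m x
  have t2 : Tendsto (fun m => Ex Q (mol f m)) atTop (𝓝 (Ex Q f)) := by
    simp only [Ex_eq]
    exact tendsto_gQ (fun m => (hcm m).aestronglyMeasurable) hb
      (ae_of_all _ fun x => mol_tendsto hcf x)
  have t3 : ∀ i, Tendsto (fun m => Ex Q (fun z => pd i (mol f m) z)) atTop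
      (𝓝 (Ex Q (fun z => pd i f z))) := by
    intro i
    simp only [Ex_eq]
    refine tendsto_gQ (C := K) (k := 0) (fun m => (meas_pd _ i).aestronglyMeasurable)
      (fun m x => by simpa using hpb m i x) ?_
    filter_upwards [hpd] with x hx using hx i
  have t4 : Tendsto (fun m => Ex Q (fun z => ∑ i, (pd i (mol f m) z) ^ 2)) atTop
      (𝓝 (Ex Q (fun z => ∑ i, (pd i f z) ^ 2))) := by
    simp only [Ex_eq]
    refine tendsto_gQ (C := n * K ^ 2) (k := 0) (fun m => ?_) (fun m x => ?_) ?_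
    · exact (Finset.measurable_sum _ fun i _ => (meas_pd _ i).pow_const 2).aestronglyMeasurable
    · rw [abs_of_nonneg (Finset.sum_nonneg fun i _ => sq_nonneg _), pow_zero, mul_one]
      calc ∑ i, (pd i (mol f m) x) ^ 2 ≤ ∑ _i : Fin n, (K : ℝ) ^ 2 :=
            Finset.sum_le_sum fun i _ => by
              have := hpb m i x
              rw [← sq_abs]
              exact pow_le_pow_left₀ (abs_nonneg _) this 2
        _ = n * K ^ 2 := by simp
    · filter_upwards [hpd] with x hx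
      exact tendsto_finsetSum _ fun i _ => (hx i).pow 2
  refine le_of_tendsto_of_tendsto' (t1.sub (t2.pow 2))
    (((tendsto_finsetSum _ fun i _ => (t3 i).pow 2).const_mul _).add (t4.const_mul _)) key

/-! ### the psd form of the first Poincaré inequality -/

/-- `B(f,h) = E ⟨∇f, ∇h⟩ - Cov(f,h)` -/
def Bf (f h : E n → ℝ) : ℝ :=
  Ex Q (fun z => ∑ i, pd i f z * pd i h z) - (Ex Q (fun z => f z * h z) - Ex Q f * Ex Q h)

lemma lip_comb {f h : E n → ℝ} {K L : ℝ≥0} (hf : LipschitzWith K f) (hh : LipschitzWith L h) (t : ℝ) :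
    ∃ M : ℝ≥0, LipschitzWith M (fun x => f x + t * h x) := by
  refine ⟨K + Real.nnabs t * L, LipschitzWith.of_dist_le_mul fun x y => ?_⟩
  have h1 := hf.dist_le_mul x y
  have h2 := hh.dist_le_mul x y
  rw [Real.dist_eq] at h1 h2 ⊢
  have e : f x + t * h x - (f y + t * h y) = (f x - f y) + t * (h x - h y) := by ring
  rw [e]
  refine (abs_add_le _ _).trans ?_
  rw [abs_mul, NNReal.coe_add, NNReal.coe_mul, Real.coe_nnabs, add_mul]
  refine add_le_add h1 ?_
  rw [mul_assoc]
  exact mul_le_mul_of_nonneg_left h2 (abs_nonneg _)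

lemma int_mul {f h : E n → ℝ} (hf : LG f) (hh : LG h) : Integrable (fun x => f x * h x) (gQ n) :=
  (hf.mul hh).integrable

lemma int_pd_mul {f h : E n → ℝ} (hf : LG f) (hh : LG h) :
    Integrable (fun x => ∑ i, pd i f x * pd i h x) (gQ n) := by
  refine integrable_finsetSum _ fun i _ => ?_
  exact ((hf.pg_pd i).mul (hh.pg_pd i)).integrable
    ((meas_pd f i).mul (meas_pd h i)).aestronglyMeasurable

lemma int_comb3 {μ : Measure (E n)} {a b c : E n → ℝ} (ha : Integrable a μ) (hb : Integrable b μ)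
    (hc : Integrable c μ) (s u : ℝ) :
    ∫ x, (a x + s * b x + u * c x) ∂μ = ∫ x, a x ∂μ + s * ∫ x, b x ∂μ + u * ∫ x, c x ∂μ := by
  have h1 : Integrable (fun x => a x + s * b x) μ := ha.add (hb.const_mul s)
  rw [integral_add h1 (hc.const_mul u), integral_add ha (hb.const_mul s), integral_const_mul,
    integral_const_mul]

/-- expansion of the form along `f + t h` -/
lemma Bf_comb {f h : E n → ℝ} (hf : LG f) (hh : LG h) (t : ℝ) :
    Bf (fun x => f x + t * h x) (fun x => f x + t * h x)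
      = Bf f f + 2 * t * Bf f h + t ^ 2 * Bf h h := by
  have i1 := hf.integrable
  have i2 := hh.integrable
  have j11 := int_mul hf hf
  have j12 := int_mul hf hh
  have j22 := int_mul hh hh
  have k11 := int_pd_mul hf hf
  have k12 := int_pd_mul hf hh
  have k22 := int_pd_mul hh hh
  have e1 : ∫ x, (f x + t * h x) ∂(gQ n) = ∫ x, f x ∂(gQ n) + t * ∫ x, h x ∂(gQ n) := by
    rw [integral_add i1 (i2.const_mul t), integral_const_mul]
  have e2 : ∫ x, (f x + t * h x) * (f x + t * h x) ∂(gQ n)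
      = ∫ x, f x * f x ∂(gQ n) + 2 * t * ∫ x, f x * h x ∂(gQ n) + t ^ 2 * ∫ x, h x * h x ∂(gQ n) := by
    have : (fun x => (f x + t * h x) * (f x + t * h x))
        = fun x => f x * f x + 2 * t * (f x * h x) + t ^ 2 * (h x * h x) := by
      funext x; ring
    rw [this]
    exact int_comb3 j11 j12 j22 _ _
  have e3 : ∫ x, ∑ i, pd i (fun x => f x + t * h x) x * pd i (fun x => f x + t * h x) x ∂(gQ n)
      = ∫ x, ∑ i, pd i f x * pd i f x ∂(gQ n) + 2 * t * ∫ x, ∑ i, pd i f x * pd i h x ∂(gQ n)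
        + t ^ 2 * ∫ x, ∑ i, pd i h x * pd i h x ∂(gQ n) := by
    have : ∫ x, ∑ i, pd i (fun x => f x + t * h x) x * pd i (fun x => f x + t * h x) x ∂(gQ n)
        = ∫ x, (∑ i, pd i f x * pd i f x + 2 * t * ∑ i, pd i f x * pd i h x
          + t ^ 2 * ∑ i, pd i h x * pd i h x) ∂(gQ n) := by
      refine integral_congr_ae ?_
      filter_upwards [hf.ae_diff, hh.ae_diff] with x d1 d2
      rw [Finset.mul_sum, Finset.mul_sum, ← Finset.sum_add_distrib, ← Finset.sum_add_distrib]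
      refine Finset.sum_congr rfl fun i _ => ?_
      rw [pd_add d1 (d2.const_mul t), pd_const_mul d2]
      ring
    rw [this]
    exact int_comb3 k11 k12 k22 _ _
  unfold Bf
  simp only [Ex_eq]
  rw [e1, e2, e3]
  ring

lemma Bf_nonneg (hP : StmtPoi) {f : E n → ℝ} {K : ℝ≥0} (hf : LipschitzWith K f) : 0 ≤ Bf f f := by
  have h := hP n f K hf
  unfold Bf
  have e1 : (fun z => f z * f z) = fun z => f z ^ 2 := by funext z; ring
  have e2 : (fun z => ∑ i, pd i f z * pd i f z) = fun z => ∑ i, (pd i f z) ^ 2 := by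
    funext z
    exact Finset.sum_congr rfl fun i _ => by ring
  rw [e1, e2]
  nlinarith

/-- Cauchy-Schwarz for finite sums of psd quadratics -/
lemma cs_of_nonneg {a b c : ℝ} (h : ∀ t : ℝ, 0 ≤ a + 2 * t * b + t ^ 2 * c) : b ^ 2 ≤ a * c := by
  have h1 := discrim_le_zero (a := c) (b := 2 * b) (c := a) fun t => by
    have := h t
    nlinarith
  unfold discrim at h1
  nlinarith

/-- **POIF**, vector valued: `(∑_k B(f_k,h_k))² ≤ (∑_k B(f_k,f_k)) (∑_k B(h_k,h_k))` -/
theorem Bf_cs (hP : StmtPoi) {κ : Type*} (s : Finset κ) {f h : κ → E n → ℝ} {K L : κ → ℝ≥0}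
    (hf : ∀ k, LipschitzWith (K k) (f k)) (hh : ∀ k, LipschitzWith (L k) (h k)) :
    (∑ k ∈ s, Bf (f k) (h k)) ^ 2 ≤ (∑ k ∈ s, Bf (f k) (f k)) * (∑ k ∈ s, Bf (h k) (h k)) := by
  refine cs_of_nonneg fun t => ?_
  have e : ∑ k ∈ s, Bf (f k) (f k) + 2 * t * ∑ k ∈ s, Bf (f k) (h k) + t ^ 2 * ∑ k ∈ s, Bf (h k) (h k)
      = ∑ k ∈ s, Bf (fun x => f k x + t * h k x) (fun x => f k x + t * h k x) := by
    rw [Finset.mul_sum, Finset.mul_sum, ← Finset.sum_add_distrib, ← Finset.sum_add_distrib]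
    exact Finset.sum_congr rfl fun k _ =>
      (Bf_comb (LG.of_lipschitz (hf k)) (LG.of_lipschitz (hh k)) t).symm
  rw [e]
  refine Finset.sum_nonneg fun k _ => ?_
  obtain ⟨M, hM⟩ := lip_comb (hf k) (hh k) t
  exact Bf_nonneg hP hM

end Vale.Agent.P254.SP649
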