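import Vale.Agent.P254.SP.H649.LG

/-!
# P254, (SP_0): Gaussian integration by parts for the class `LG`
-/

open MeasureTheory Filter
open scoped ENNReal NNReal Topology

noncomputable section

namespace Vale.Agent.P254.SP649

open Vale.Agent.P227.M Vale.Agent.P254.S Vale.Agent.P254.S130

variable {n : ℕ}

lemma norm_ei (b : Fin n) : ‖(ei b : E n)‖ = 1 := by
  unfold ei
  simp

lemma inner_ei (x : E n) (b : Fin n) : inner ℝ x (ei b) = x b := by
  unfold ei
  rw [EuclideanSpace.inner_single_right]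
  simp

lemma LG.ae_diff_vol {F : E n → ℝ} (hF : LG F) :
    ∀ᵐ x ∂(volume : Measure (E n)), DifferentiableAt ℝ F x := by
  obtain ⟨C, k, hC, hF⟩ := hF
  have h : ∀ R : ℕ, ∀ᵐ x ∂(volume : Measure (E n)), x ∈ Metric.ball (0 : E n) R →
      DifferentiableAt ℝ F x := by
    intro R
    have hL : LipschitzOnWith (⟨C * (1 + 2 * R) ^ k, by positivity⟩ : ℝ≥0) F
        (Metric.ball (0 : E n) R) := by
      refine LipschitzOnWith.of_dist_le_mul fun x hx y hy => ?_
      rw [Real.dist_eq, dist_eq_norm]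
      refine (hF x y).trans ?_
      have hx' : ‖x‖ ≤ R := by simpa using (Metric.mem_ball.1 hx).le
      have hy' : ‖y‖ ≤ R := by simpa using (Metric.mem_ball.1 hy).le
      show C * (1 + ‖x‖ + ‖y‖) ^ k * ‖x - y‖ ≤ C * (1 + 2 * R) ^ k * ‖x - y‖
      exact mul_le_mul_of_nonneg_right (mul_le_mul_of_nonneg_left
        (pow_le_pow_left₀ (by positivity) (by linarith) k) hC) (norm_nonneg _)
    filter_upwards [hL.ae_differentiableWithinAt_of_mem (μ := volume)] with x hx hm
    exact (hx hm).differentiableAt (Metric.isOpen_ball.mem_nhds hm)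
  rw [← ae_all_iff] at h
  filter_upwards [h] with x hx
  obtain ⟨R, hR⟩ := exists_nat_gt ‖x‖
  exact hx R (by simpa using hR)

lemma LG.ae_diff {F : E n → ℝ} (hF : LG F) : ∀ᵐ x ∂(gQ n), DifferentiableAt ℝ F x :=
  gQ_ac hF.ae_diff_vol

lemma pd_bound {F : E n → ℝ} {C : ℝ} {k : ℕ} (hC : 0 ≤ C)
    (hF : ∀ x y, |F x - F y| ≤ C * (1 + ‖x‖ + ‖y‖) ^ k * ‖x - y‖) (x : E n) :
    ‖fderiv ℝ F x‖ ≤ C * 2 ^ k * (1 + ‖x‖) ^ k := by
  by_cases hd : DifferentiableAt ℝ F x
  · refine HasFDerivAt.le_of_lip' hd.hasFDerivAt (by positivity) ?_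
    filter_upwards [Metric.ball_mem_nhds x one_pos] with y hy
    rw [Real.norm_eq_abs]
    refine (hF y x).trans ?_
    have hy' : ‖y‖ ≤ ‖x‖ + 1 := by
      have := (Metric.mem_ball.1 hy).le
      rw [dist_eq_norm] at this
      calc ‖y‖ = ‖x + (y - x)‖ := by rw [add_sub_cancel]
        _ ≤ ‖x‖ + ‖y - x‖ := norm_add_le _ _
        _ ≤ _ := by linarith
    have e : C * 2 ^ k * (1 + ‖x‖) ^ k = C * (2 * (1 + ‖x‖)) ^ k := by rw [mul_pow]; ring
    rw [e]
    exact mul_le_mul_of_nonneg_right (mul_le_mul_of_nonneg_left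
        (pow_le_pow_left₀ (by positivity) (by linarith [norm_nonneg x]) k) hC) (norm_nonneg _)
  · rw [fderiv_zero_of_not_differentiableAt hd, norm_zero]
    positivity

lemma LG.pg_pd {F : E n → ℝ} (hF : LG F) (b : Fin n) : PG (pd b F) := by
  obtain ⟨C, k, hC, hF⟩ := hF
  refine ⟨C * 2 ^ k, k, by positivity, fun x => ?_⟩
  have h := (fderiv ℝ F x).le_opNorm (ei b)
  rw [norm_ei, mul_one] at h
  exact h.trans (pd_bound hC hF x)

lemma meas_pd (F : E n → ℝ) (b : Fin n) : Measurable (pd b F) :=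
  measurable_fderiv_apply_const ℝ F (ei b)

lemma LG.integrable_pd {F : E n → ℝ} (hF : LG F) (b : Fin n) : Integrable (pd b F) (gQ n) :=
  (hF.pg_pd b).integrable (meas_pd F b).aestronglyMeasurable

lemma LG.memLp_pd {F : E n → ℝ} (hF : LG F) (b : Fin n) : MemLp (pd b F) 2 (gQ n) :=
  (hF.pg_pd b).memLp (meas_pd F b).aestronglyMeasurable

/-- product rule -/
lemma pd_mul {F G : E n → ℝ} {x : E n} (hF : DifferentiableAt ℝ F x) (hG : DifferentiableAt ℝ G x)
    (b : Fin n) : pd b (fun x => F x * G x) x = F x * pd b G x + G x * pd b F x := by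
  unfold pd
  rw [fderiv_fun_mul hF hG]
  simp

lemma pd_add {F G : E n → ℝ} {x : E n} (hF : DifferentiableAt ℝ F x) (hG : DifferentiableAt ℝ G x)
    (b : Fin n) : pd b (fun x => F x + G x) x = pd b F x + pd b G x := by
  unfold pd
  rw [fderiv_fun_add hF hG]
  simp

lemma pd_sub {F G : E n → ℝ} {x : E n} (hF : DifferentiableAt ℝ F x) (hG : DifferentiableAt ℝ G x)
    (b : Fin n) : pd b (fun x => F x - G x) x = pd b F x - pd b G x := by
  unfold pd
  rw [fderiv_fun_sub hF hG]
  simp

lemma pd_const_mul {F : E n → ℝ} {x : E n} (hF : DifferentiableAt ℝ F x) (c : ℝ)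
    (b : Fin n) : pd b (fun x => c * F x) x = c * pd b F x := by
  unfold pd
  rw [fderiv_const_mul hF]
  simp

lemma pd_const (c : ℝ) (x : E n) (b : Fin n) : pd b (fun _ => c) x = 0 := by
  unfold pd
  simp

lemma pd_sum {κ : Type*} (s : Finset κ) {F : κ → E n → ℝ} {x : E n}
    (hF : ∀ k ∈ s, DifferentiableAt ℝ (F k) x) (b : Fin n) :
    pd b (fun x => ∑ k ∈ s, F k x) x = ∑ k ∈ s, pd b (F k) x := by
  unfold pd
  rw [fderiv_fun_sum hF]
  simp

lemma pd_coord (a b : Fin n) (x : E n) : pd b (fun x : E n => x a) x = if a = b then 1 else 0 := by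
  unfold pd ei
  have h : HasFDerivAt (fun x : E n => x a) (EuclideanSpace.proj a : E n →L[ℝ] ℝ) x :=
    (EuclideanSpace.proj a : E n →L[ℝ] ℝ).hasFDerivAt
  rw [h.fderiv]
  simp

/-- the exponential weight along a line -/
lemma exp_Q_shift (x : E n) (b : Fin n) {t : ℝ} (ht : |t| ≤ 1) :
    Real.exp (-Q (x + t • ei b)) ≤ Real.exp (1 / 2) * Real.exp (-(1 / 4) * ‖x‖ ^ 2) := by
  rw [← Real.exp_add]
  apply Real.exp_le_exp.2
  unfold Q
  have h1 : ‖t • (ei b : E n)‖ ≤ 1 := by rw [norm_smul, norm_ei, mul_one]; exact ht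
  have h2 : ‖x‖ ≤ ‖x + t • ei b‖ + ‖t • (ei b : E n)‖ := by
    calc ‖x‖ = ‖(x + t • ei b) - t • ei b‖ := by rw [add_sub_cancel_right]
      _ ≤ _ := norm_sub_le _ _
  have h3 := norm_nonneg x
  have h4 := norm_nonneg (x + t • ei b)
  nlinarith [sq_nonneg (‖x + t • ei b‖ - 1), mul_self_nonneg (‖x + t • ei b‖ - ‖t • (ei b : E n)‖)]

lemma Q_shift (x : E n) (b : Fin n) (t : ℝ) : Q (x + t • ei b) - Q x = t * x b + t ^ 2 / 2 := by
  unfold Q
  have h := norm_add_sq_real x (t • ei b)
  rw [h, inner_smul_right, inner_ei, norm_smul, norm_ei, Real.norm_eq_abs, mul_one, sq_abs]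
  ring

lemma abs_coord_le (x : E n) (b : Fin n) : |x b| ≤ ‖x‖ := by
  have := PiLp.norm_apply_le x b
  simpa using this

lemma abs_exp_sub_le (u v : ℝ) : |Real.exp (-u) - Real.exp (-v)| ≤
    |u - v| * max (Real.exp (-u)) (Real.exp (-v)) := by
  have key : ∀ p q : ℝ, p ≤ q → Real.exp q - Real.exp p ≤ (q - p) * Real.exp q := by
    intro p q _
    have h := Real.add_one_le_exp (p - q)
    have h2 : Real.exp p = Real.exp q * Real.exp (p - q) := by rw [← Real.exp_add]; ring_nf
    have h3 := Real.exp_pos q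
    rw [h2]
    nlinarith
  rcases le_total u v with h | h
  · have h1 : Real.exp (-v) ≤ Real.exp (-u) := Real.exp_le_exp.2 (by linarith)
    rw [max_eq_left h1, abs_of_nonneg (by linarith), abs_of_nonpos (by linarith)]
    have := key (-v) (-u) (by linarith)
    linarith
  · have h1 : Real.exp (-u) ≤ Real.exp (-v) := Real.exp_le_exp.2 (by linarith)
    rw [max_eq_right h1, abs_of_nonpos (by linarith), abs_of_nonneg (by linarith)]
    have := key (-u) (-v) (by linarith)
    linarith

/-- **Gaussian integration by parts** -/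
theorem LG.ibp_vol {F : E n → ℝ} (hF : LG F) (b : Fin n) :
    ∫ x, (pd b F x - x b * F x) * Real.exp (-Q x) = 0 := by
  set h : E n → ℝ := fun x => F x * Real.exp (-Q x) with hh
  have hcF := hF.continuous
  have hcQ : Continuous fun x : E n => Real.exp (-Q x) := Real.continuous_exp.comp cont_Q.neg
  have hint : Integrable h := hF.pg.int_vol hcF.aestronglyMeasurable
  have hdiff := hF.ae_diff_vol
  obtain ⟨A, p, hA, hFg⟩ := hF.pg
  obtain ⟨C, k, hC, hFl⟩ := hF
  let t : ℕ → ℝ := fun m => 1 / ((m : ℝ) + 1)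
  have ht0 : ∀ m, 0 < t m := fun m => by positivity
  have ht1 : ∀ m, t m ≤ 1 := fun m => by
    show 1 / ((m : ℝ) + 1) ≤ 1
    rw [div_le_one (by positivity)]
    linarith [Nat.cast_nonneg (α := ℝ) m]
  have htl : Tendsto t atTop (𝓝 0) := tendsto_one_div_add_atTop_nhds_zero_nat
  have hz : ∀ m, ∫ x, (t m)⁻¹ * (h (x + t m • ei b) - h x) = 0 := by
    intro m
    rw [integral_const_mul, integral_sub (hint.comp_add_right _) hint,
      integral_add_right_eq_self h, sub_self, mul_zero]
  have hlim : Tendsto (fun m => ∫ x, (t m)⁻¹ * (h (x + t m • ei b) - h x)) atTop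
      (𝓝 (∫ x, (pd b F x - x b * F x) * Real.exp (-Q x))) := by
    refine tendsto_integral_of_dominated_convergence
      (fun x => (C * 2 ^ k + A) * Real.exp (1 / 2) *
        ((1 + ‖x‖) ^ (k + p + 1) * Real.exp (-(1 / 4) * ‖x‖ ^ 2))) ?_ ?_ ?_ ?_
    · intro m
      have : Continuous h := hcF.mul hcQ
      exact (continuous_const.mul ((this.comp (continuous_id.add continuous_const)).sub
        this)).aestronglyMeasurable
    · exact (int_w_exp (k + p + 1) (1 / 4) (by norm_num)).const_mul _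
    · intro m
      refine ae_of_all _ fun x => ?_
      have e1 := exp_Q_shift x b (t := t m) (by rw [abs_of_pos (ht0 m)]; exact ht1 m)
      have e0 : Real.exp (-Q x) ≤ Real.exp (1 / 2) * Real.exp (-(1 / 4) * ‖x‖ ^ 2) := by
        have := exp_Q_shift x b (t := 0) (by simp)
        simpa using this
      set X := Real.exp (1 / 2) * Real.exp (-(1 / 4) * ‖x‖ ^ 2) with hX
      have hX0 : 0 < X := by positivity
      have hsub : h (x + t m • ei b) - h x = (F (x + t m • ei b) - F x) * Real.exp (-Q (x + t m • ei b))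
          + F x * (Real.exp (-Q (x + t m • ei b)) - Real.exp (-Q x)) := by
        simp only [hh]
        ring
      have b1 : |F (x + t m • ei b) - F x| ≤ t m * (C * 2 ^ k * (1 + ‖x‖) ^ k) := by
        refine (hFl _ _).trans ?_
        have n1 : ‖x + t m • ei b‖ ≤ ‖x‖ + 1 := by
          refine (norm_add_le _ _).trans ?_
          rw [norm_smul, norm_ei, Real.norm_eq_abs, abs_of_pos (ht0 m), mul_one]
          linarith [ht1 m]
        have n2 : ‖x + t m • ei b - x‖ = t m := by
          rw [add_sub_cancel_left, norm_smul, norm_ei, Real.norm_eq_abs, abs_of_pos (ht0 m), mul_one]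
        rw [n2, mul_comm (t m), mul_assoc C (2 ^ k), ← mul_pow]
        have := (ht0 m).le
        gcongr
        linarith
      have b2 : |Real.exp (-Q (x + t m • ei b)) - Real.exp (-Q x)| ≤ t m * (1 + ‖x‖) * X := by
        refine (abs_exp_sub_le _ _).trans ?_
        rw [Q_shift]
        refine mul_le_mul ?_ (max_le e1 e0) (le_max_of_le_left (Real.exp_pos _).le) (by
          have := ht0 m; positivity)
        have h1 := abs_coord_le x b
        have h2 := ht0 m
        have h3 := ht1 m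
        calc |t m * x b + t m ^ 2 / 2| ≤ |t m * x b| + |t m ^ 2 / 2| := abs_add_le _ _
          _ = t m * |x b| + t m ^ 2 / 2 := by
              rw [abs_mul, abs_of_pos h2, abs_of_pos (by positivity : (0:ℝ) < t m ^ 2 / 2)]
          _ ≤ t m * (1 + ‖x‖) := by nlinarith
      rw [norm_mul, Real.norm_eq_abs, Real.norm_eq_abs, abs_inv, abs_of_pos (ht0 m)]
      rw [inv_mul_le_iff₀ (ht0 m), hsub]
      have h1 := one_le_w x
      have w1 : (1 + ‖x‖) ^ k ≤ (1 + ‖x‖) ^ (k + p + 1) := pow_le_pow_right₀ h1 (by omega)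
      have w2 : (1 + ‖x‖) ^ (p + 1) ≤ (1 + ‖x‖) ^ (k + p + 1) := pow_le_pow_right₀ h1 (by omega)
      calc |(F (x + t m • ei b) - F x) * Real.exp (-Q (x + t m • ei b))
            + F x * (Real.exp (-Q (x + t m • ei b)) - Real.exp (-Q x))|
          ≤ |F (x + t m • ei b) - F x| * Real.exp (-Q (x + t m • ei b))
            + |F x| * |Real.exp (-Q (x + t m • ei b)) - Real.exp (-Q x)| := by
              refine (abs_add_le _ _).trans ?_
              rw [abs_mul, abs_mul, abs_of_pos (Real.exp_pos _)]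
        _ ≤ t m * (C * 2 ^ k * (1 + ‖x‖) ^ k) * X + A * (1 + ‖x‖) ^ p * (t m * (1 + ‖x‖) * X) := by
              refine add_le_add (mul_le_mul b1 e1 (Real.exp_pos _).le (by
                have := ht0 m; positivity)) (mul_le_mul (hFg x) b2 (abs_nonneg _) (by positivity))
        _ = t m * ((C * 2 ^ k * (1 + ‖x‖) ^ k + A * (1 + ‖x‖) ^ (p + 1)) * X) := by ring
        _ ≤ t m * ((C * 2 ^ k * (1 + ‖x‖) ^ (k + p + 1) + A * (1 + ‖x‖) ^ (k + p + 1)) * X) := by
              have := (ht0 m).le
              gcongr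
        _ = _ := by rw [hX]; ring
    · filter_upwards [hdiff] with x hx
      have hd : HasFDerivAt F (fderiv ℝ F x) x := hx.hasFDerivAt
      have hQ : HasFDerivAt (Q : E n → ℝ) (innerSL ℝ x) x := by
        have := (hasStrictFDerivAt_norm_sq x).hasFDerivAt
        have h2 := this.mul_const (1 / 2 : ℝ)
        refine (h2.congr_of_eventuallyEq ?_).congr_fderiv ?_
        · refine Eventually.of_forall fun y => ?_
          unfold Q
          ring
        · ext v
          simp
      have hh' : HasFDerivAt h (F x • (Real.exp (-Q x) • -(innerSL ℝ x)) +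
          Real.exp (-Q x) • fderiv ℝ F x) x := hd.mul (hQ.neg.exp)
      have hl := hh'.hasLineDerivAt (ei b)
      have hl2 := hl.tendsto_slope_zero_right
      have hl3 : Tendsto t atTop (𝓝[>] 0) :=
        tendsto_nhdsWithin_iff.2 ⟨htl, Eventually.of_forall fun m => ht0 m⟩
      have hl4 := hl2.comp hl3
      refine (hl4.congr fun m => ?_).trans (le_of_eq ?_)
      · simp [Function.comp]
      · congr 1
        simp only [_root_.add_apply, _root_.smul_apply, _root_.neg_apply, smul_eq_mul, innerSL_apply_apply]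
        rw [inner_ei]
        unfold pd
        ring
  simp only [hz] at hlim
  exact (tendsto_nhds_unique hlim tendsto_const_nhds)

theorem LG.ibp {F : E n → ℝ} (hF : LG F) (b : Fin n) :
    ∫ x, x b * F x ∂(gQ n) = ∫ x, pd b F x ∂(gQ n) := by
  have h := hF.ibp_vol b
  have h1 : Integrable (fun x => pd b F x) (gQ n) := hF.integrable_pd b
  have h2 : Integrable (fun x => x b * F x) (gQ n) := ((LG.coord b).mul hF).integrable
  have h3 : ∫ x, (pd b F x - x b * F x) ∂(gQ n) = 0 := by
    rw [← Ex_eq]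
    unfold Ex
    rw [h, zero_div]
  rw [integral_sub h1 h2] at h3
  linarith

/-- integration by parts, product form: `∫ F (x_b G - ∂_b G) = ∫ ∂_b F G` -/
theorem LG.ibp_mul {F G : E n → ℝ} (hF : LG F) (hG : LG G) (b : Fin n) :
    ∫ x, F x * (x b * G x - pd b G x) ∂(gQ n) = ∫ x, pd b F x * G x ∂(gQ n) := by
  have h := (hF.mul hG).ibp b
  have e : ∫ x, pd b (fun x => F x * G x) x ∂(gQ n)
      = ∫ x, (F x * pd b G x + pd b F x * G x) ∂(gQ n) := by
    refine integral_congr_ae ?_
    filter_upwards [hF.ae_diff, hG.ae_diff] with x h1 h2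
    rw [pd_mul h1 h2]
    ring
  have i1 : Integrable (fun x => F x * pd b G x) (gQ n) :=
    (hF.pg.mul (hG.pg_pd b)).integrable
      (hF.continuous.aestronglyMeasurable.mul (meas_pd G b).aestronglyMeasurable)
  have i2 : Integrable (fun x => pd b F x * G x) (gQ n) :=
    ((hF.pg_pd b).mul hG.pg).integrable
      ((meas_pd F b).aestronglyMeasurable.mul hG.continuous.aestronglyMeasurable)
  have i3 : Integrable (fun x => F x * (x b * G x)) (gQ n) :=
    (hF.mul ((LG.coord b).mul hG)).integrable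
  rw [e, integral_add i1 i2] at h
  have e2 : ∫ x, F x * (x b * G x - pd b G x) ∂(gQ n)
      = ∫ x, F x * (x b * G x) ∂(gQ n) - ∫ x, F x * pd b G x ∂(gQ n) := by
    rw [← integral_sub i3 i1]
    refine integral_congr_ae (ae_of_all _ fun x => ?_)
    simp only
    ring
  have e3 : ∫ x, x b * (F x * G x) ∂(gQ n) = ∫ x, F x * (x b * G x) ∂(gQ n) := by
    refine integral_congr_ae (ae_of_all _ fun x => ?_)
    simp only
    ring
  rw [e2, ← e3, h]
  ring

end Vale.Agent.P254.SP649
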