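import Vale.Agent.P254.S.H130.Gauss

/-!
# P254, (SP_0): locally Lipschitz functions of polynomial growth and Gaussian integration by parts

`LG F` : `|F x - F y| ≤ C (1 + ‖x‖ + ‖y‖)^k ‖x - y‖`.  Closed under sums, products; contains
coordinates and Lipschitz functions.  For `LG F` : `∫ x_b F dγ = ∫ ∂_b F dγ`
(`∂_b F = pd b F`, the Fréchet derivative, which exists a.e.).
-/

open MeasureTheory Filter
open scoped ENNReal NNReal Topology

noncomputable section

namespace Vale.Agent.P254.SP649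

open Vale.Agent.P227.M Vale.Agent.P254.S Vale.Agent.P254.S130

variable {n : ℕ}

/-- locally Lipschitz with polynomial growth -/
def LG (F : E n → ℝ) : Prop :=
  ∃ (C : ℝ) (k : ℕ), 0 ≤ C ∧ ∀ x y, |F x - F y| ≤ C * (1 + ‖x‖ + ‖y‖) ^ k * ‖x - y‖

/-- polynomial growth -/
def PG (F : E n → ℝ) : Prop := ∃ (C : ℝ) (k : ℕ), 0 ≤ C ∧ ∀ x, |F x| ≤ C * (1 + ‖x‖) ^ k

lemma one_le_w (x : E n) : (1 : ℝ) ≤ 1 + ‖x‖ := by linarith [norm_nonneg x]

lemma one_le_w2 (x y : E n) : (1 : ℝ) ≤ 1 + ‖x‖ + ‖y‖ := by linarith [norm_nonneg x, norm_nonneg y]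

lemma PG.const (c : ℝ) : PG fun _ : E n => c :=
  ⟨|c|, 0, abs_nonneg _, fun x => by simp⟩

lemma PG.add {F G : E n → ℝ} (hF : PG F) (hG : PG G) : PG fun x => F x + G x := by
  obtain ⟨C, k, hC, hF⟩ := hF
  obtain ⟨D, l, hD, hG⟩ := hG
  refine ⟨C + D, k + l, by positivity, fun x => (abs_add_le _ _).trans ?_⟩
  have h1 := one_le_w x
  have h2 : (1 + ‖x‖) ^ k ≤ (1 + ‖x‖) ^ (k + l) := pow_le_pow_right₀ h1 (by omega)
  have h3 : (1 + ‖x‖) ^ l ≤ (1 + ‖x‖) ^ (k + l) := pow_le_pow_right₀ h1 (by omega)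
  calc |F x| + |G x| ≤ C * (1 + ‖x‖) ^ k + D * (1 + ‖x‖) ^ l := add_le_add (hF x) (hG x)
    _ ≤ C * (1 + ‖x‖) ^ (k + l) + D * (1 + ‖x‖) ^ (k + l) := by gcongr
    _ = _ := by ring

lemma PG.mul {F G : E n → ℝ} (hF : PG F) (hG : PG G) : PG fun x => F x * G x := by
  obtain ⟨C, k, hC, hF⟩ := hF
  obtain ⟨D, l, hD, hG⟩ := hG
  refine ⟨C * D, k + l, by positivity, fun x => ?_⟩
  rw [abs_mul, pow_add]
  calc |F x| * |G x| ≤ (C * (1 + ‖x‖) ^ k) * (D * (1 + ‖x‖) ^ l) :=
        mul_le_mul (hF x) (hG x) (abs_nonneg _) (by positivity)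
    _ = _ := by ring

lemma PG.neg {F : E n → ℝ} (hF : PG F) : PG fun x => -F x := by
  obtain ⟨C, k, hC, hF⟩ := hF
  exact ⟨C, k, hC, fun x => by simpa using hF x⟩

lemma PG.sub {F G : E n → ℝ} (hF : PG F) (hG : PG G) : PG fun x => F x - G x := by
  simpa [sub_eq_add_neg] using hF.add hG.neg

lemma PG.pow {F : E n → ℝ} (hF : PG F) (m : ℕ) : PG fun x => F x ^ m := by
  induction m with
  | zero => simpa using PG.const (n := n) 1
  | succ m ih => simpa [pow_succ] using ih.mul hF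

lemma PG.sum {κ : Type*} (s : Finset κ) {F : κ → E n → ℝ} (h : ∀ k ∈ s, PG (F k)) :
    PG fun z => ∑ k ∈ s, F k z := by
  classical
  induction s using Finset.induction_on with
  | empty => simp only [Finset.sum_empty]; exact PG.const 0
  | insert k s hk ih =>
    simp only [Finset.sum_insert hk]
    exact (h k (Finset.mem_insert_self _ _)).add (ih fun j hj => h j (Finset.mem_insert_of_mem hj))

lemma PG.coord (b : Fin n) : PG fun x : E n => x b := by
  refine ⟨1, 1, zero_le_one, fun x => ?_⟩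
  have := EuclideanSpace.norm_eq x
  have h : |x b| ≤ ‖x‖ := by
    have := PiLp.norm_apply_le x b
    simpa using this
  rw [one_mul, pow_one]
  linarith

lemma PG.of_bdd {F : E n → ℝ} {B : ℝ} (h : ∀ x, |F x| ≤ B) : PG F :=
  ⟨|B|, 0, abs_nonneg _, fun x => by simpa using (h x).trans (le_abs_self B)⟩

lemma PG.mono {F G : E n → ℝ} (hG : PG G) (h : ∀ x, |F x| ≤ |G x|) : PG F := by
  obtain ⟨C, k, hC, hG⟩ := hG
  exact ⟨C, k, hC, fun x => (h x).trans (hG x)⟩

/-! ### closure properties of `LG` -/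

lemma LG.const (c : ℝ) : LG fun _ : E n => c := ⟨0, 0, le_rfl, fun x y => by simp⟩

lemma LG.add {F G : E n → ℝ} (hF : LG F) (hG : LG G) : LG fun x => F x + G x := by
  obtain ⟨C, k, hC, hF⟩ := hF
  obtain ⟨D, l, hD, hG⟩ := hG
  refine ⟨C + D, k + l, by positivity, fun x y => ?_⟩
  have h1 := one_le_w2 x y
  have h2 : (1 + ‖x‖ + ‖y‖) ^ k ≤ (1 + ‖x‖ + ‖y‖) ^ (k + l) := pow_le_pow_right₀ h1 (by omega)
  have h3 : (1 + ‖x‖ + ‖y‖) ^ l ≤ (1 + ‖x‖ + ‖y‖) ^ (k + l) := pow_le_pow_right₀ h1 (by omega)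
  have e : F x + G x - (F y + G y) = (F x - F y) + (G x - G y) := by ring
  rw [e]
  calc |(F x - F y) + (G x - G y)| ≤ |F x - F y| + |G x - G y| := abs_add_le _ _
    _ ≤ C * (1 + ‖x‖ + ‖y‖) ^ k * ‖x - y‖ + D * (1 + ‖x‖ + ‖y‖) ^ l * ‖x - y‖ :=
        add_le_add (hF x y) (hG x y)
    _ ≤ C * (1 + ‖x‖ + ‖y‖) ^ (k + l) * ‖x - y‖ + D * (1 + ‖x‖ + ‖y‖) ^ (k + l) * ‖x - y‖ := by
        gcongr
    _ = _ := by ring

lemma LG.neg {F : E n → ℝ} (hF : LG F) : LG fun x => -F x := by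
  obtain ⟨C, k, hC, hF⟩ := hF
  refine ⟨C, k, hC, fun x y => ?_⟩
  have e : -F x - -F y = -(F x - F y) := by ring
  rw [e, abs_neg]
  exact hF x y

lemma LG.sub {F G : E n → ℝ} (hF : LG F) (hG : LG G) : LG fun x => F x - G x := by
  simpa [sub_eq_add_neg] using hF.add hG.neg

/-- growth -/
lemma LG.pg {F : E n → ℝ} (hF : LG F) : PG F := by
  obtain ⟨C, k, hC, hF⟩ := hF
  refine ⟨|F 0| + C, k + 1, by positivity, fun x => ?_⟩
  have h := hF x 0
  simp only [norm_zero, add_zero, sub_zero] at h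
  have h1 := one_le_w x
  have e : F x = F 0 + (F x - F 0) := by ring
  have h3 : (1 : ℝ) ≤ (1 + ‖x‖) ^ (k + 1) := one_le_pow₀ h1
  calc |F x| = |F 0 + (F x - F 0)| := by rw [← e]
    _ ≤ |F 0| + |F x - F 0| := abs_add_le _ _
    _ ≤ |F 0| * (1 + ‖x‖) ^ (k + 1) + C * (1 + ‖x‖) ^ k * (1 + ‖x‖) := by
        refine add_le_add ?_ (h.trans ?_)
        · exact le_mul_of_one_le_right (abs_nonneg _) h3
        · gcongr
          linarith
    _ = _ := by ring

lemma LG.mul {F G : E n → ℝ} (hF : LG F) (hG : LG G) : LG fun x => F x * G x := by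
  obtain ⟨A, p, hA, hFg⟩ := hF.pg
  obtain ⟨B, q, hB, hGg⟩ := hG.pg
  obtain ⟨C, k, hC, hF⟩ := hF
  obtain ⟨D, l, hD, hG⟩ := hG
  refine ⟨A * D + B * C, p + q + k + l, by positivity, fun x y => ?_⟩
  have h1 := one_le_w2 x y
  have e : F x * G x - F y * G y = F x * (G x - G y) + G y * (F x - F y) := by ring
  rw [e]
  set w := 1 + ‖x‖ + ‖y‖ with hw
  have hx : |F x| ≤ A * w ^ p := by
    refine (hFg x).trans ?_
    gcongr
    linarith [norm_nonneg y]
  have hy : |G y| ≤ B * w ^ q := by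
    refine (hGg y).trans ?_
    gcongr
    linarith [norm_nonneg x]
  have w1 : w ^ (p + l) ≤ w ^ (p + q + k + l) := pow_le_pow_right₀ h1 (by omega)
  have w2 : w ^ (q + k) ≤ w ^ (p + q + k + l) := pow_le_pow_right₀ h1 (by omega)
  have w0 : 0 ≤ w := by linarith
  calc |F x * (G x - G y) + G y * (F x - F y)| ≤ |F x| * |G x - G y| + |G y| * |F x - F y| := by
        refine (abs_add_le _ _).trans ?_
        rw [abs_mul, abs_mul]
    _ ≤ (A * w ^ p) * (D * w ^ l * ‖x - y‖) + (B * w ^ q) * (C * w ^ k * ‖x - y‖) :=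
        add_le_add (mul_le_mul hx (hG x y) (abs_nonneg _) (by positivity))
          (mul_le_mul hy (hF x y) (abs_nonneg _) (by positivity))
    _ = A * D * w ^ (p + l) * ‖x - y‖ + B * C * w ^ (q + k) * ‖x - y‖ := by ring
    _ ≤ A * D * w ^ (p + q + k + l) * ‖x - y‖ + B * C * w ^ (p + q + k + l) * ‖x - y‖ := by
        gcongr
    _ = _ := by ring

lemma LG.pow {F : E n → ℝ} (hF : LG F) (m : ℕ) : LG fun x => F x ^ m := by
  induction m with
  | zero => simpa using LG.const (n := n) 1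
  | succ m ih => simpa [pow_succ] using ih.mul hF

lemma LG.sum {κ : Type*} (s : Finset κ) {F : κ → E n → ℝ} (h : ∀ k ∈ s, LG (F k)) :
    LG fun z => ∑ k ∈ s, F k z := by
  classical
  induction s using Finset.induction_on with
  | empty => simp only [Finset.sum_empty]; exact LG.const 0
  | insert k s hk ih =>
    simp only [Finset.sum_insert hk]
    exact (h k (Finset.mem_insert_self _ _)).add (ih fun j hj => h j (Finset.mem_insert_of_mem hj))

lemma LG.const_mul {F : E n → ℝ} (c : ℝ) (hF : LG F) : LG fun x => c * F x := (LG.const c).mul hF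

lemma LG.of_le {F : E n → ℝ} {K : ℝ} (h : ∀ x y, |F x - F y| ≤ K * ‖x - y‖) : LG F := by
  refine ⟨|K|, 0, abs_nonneg _, fun x y => ?_⟩
  rw [pow_zero, mul_one]
  exact (h x y).trans (mul_le_mul_of_nonneg_right (le_abs_self K) (norm_nonneg _))

lemma LG.of_lipschitz {F : E n → ℝ} {K : ℝ≥0} (h : LipschitzWith K F) : LG F :=
  LG.of_le (K := K) fun x y => by
    have := h.dist_le_mul x y
    rwa [Real.dist_eq, dist_eq_norm] at this

lemma LG.coord (b : Fin n) : LG fun x : E n => x b := by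
  refine LG.of_le (K := 1) fun x y => ?_
  rw [one_mul]
  have h : |(x - y) b| ≤ ‖x - y‖ := by
    have := PiLp.norm_apply_le (x - y) b
    simpa using this
  simpa using h

lemma LG.linear (ξ : E n) : LG fun x : E n => inner ℝ ξ x := by
  refine LG.of_le (K := ‖ξ‖) fun x y => ?_
  rw [← inner_sub_right]
  exact abs_real_inner_le_norm _ _

lemma LG.comp {F : E n → ℝ} (hF : LG F) {φ : ℝ → ℝ} {K : ℝ}
    (h : ∀ s t, |φ s - φ t| ≤ K * |s - t|) : LG fun x => φ (F x) := by
  obtain ⟨C, k, hC, hF⟩ := hF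
  refine ⟨|K| * C, k, by positivity, fun x y => (h _ _).trans ?_⟩
  calc K * |F x - F y| ≤ |K| * |F x - F y| := mul_le_mul_of_nonneg_right (le_abs_self K) (abs_nonneg _)
    _ ≤ |K| * (C * (1 + ‖x‖ + ‖y‖) ^ k * ‖x - y‖) := by gcongr; exact hF x y
    _ = _ := by ring

lemma LG.continuous {F : E n → ℝ} (hF : LG F) : Continuous F := by
  obtain ⟨C, k, hC, hF⟩ := hF
  rw [continuous_iff_continuousAt]
  intro x
  rw [ContinuousAt, tendsto_iff_dist_tendsto_zero]
  have h1 : Tendsto (fun y : E n => C * (1 + ‖y‖ + ‖x‖) ^ k * ‖y - x‖) (𝓝 x)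
      (𝓝 (C * (1 + ‖x‖ + ‖x‖) ^ k * ‖x - x‖)) := by
    apply Continuous.tendsto
    fun_prop
  rw [sub_self, norm_zero, mul_zero] at h1
  refine squeeze_zero (fun _ => dist_nonneg) (fun y => ?_) h1
  rw [Real.dist_eq]
  exact hF y x

/-! ### the Gaussian has all moments -/

lemma int_w_exp (k : ℕ) (c : ℝ) (hc : 0 < c) :
    Integrable fun x : E n => (1 + ‖x‖) ^ k * Real.exp (-c * ‖x‖ ^ 2) := by
  -- bounded times a smaller Gaussian
  have hG : Integrable fun x : E n => Real.exp (-(c / 2) * ‖x‖ ^ 2) := by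
    by_contra h
    have h1 := GaussianFourier.integral_rexp_neg_mul_sq_norm (V := E n) (b := c / 2) (by positivity)
    rw [integral_undef h] at h1
    have : (0 : ℝ) < (Real.pi / (c / 2)) ^ ((Module.finrank ℝ (E n) : ℝ) / 2) := by positivity
    linarith
  obtain ⟨B, hB⟩ : ∃ B : ℝ, ∀ r : ℝ, 0 ≤ r → (1 + r) ^ k * Real.exp (-(c / 2) * r ^ 2) ≤ B := by
    have ht : Tendsto (fun r : ℝ => (1 + r) ^ k * Real.exp (-(c / 2) * r ^ 2)) atTop (𝓝 0) := by
      have h0 := (Real.tendsto_pow_mul_exp_neg_atTop_nhds_zero k)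
      have h1 : Tendsto (fun r : ℝ => 1 + r) atTop atTop := tendsto_atTop_add_const_left _ _ tendsto_id
      have h2 := (h0.comp h1).mul_const (Real.exp (1 + 1 / (2 * c)))
      rw [zero_mul] at h2
      refine squeeze_zero' ?_ ?_ h2
      · filter_upwards [eventually_ge_atTop (0 : ℝ)] with r hr
        positivity
      · filter_upwards [eventually_ge_atTop (0 : ℝ)] with r hr
        simp only [Function.comp]
        rw [mul_assoc, ← Real.exp_add]
        gcongr
        have : 0 ≤ (c * r - 1) ^ 2 / (2 * c) := by positivity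
        have e : (c * r - 1) ^ 2 / (2 * c) = c / 2 * r ^ 2 - r + 1 / (2 * c) := by
          field_simp
          ring
        rw [e] at this
        linarith
    have hcont : Continuous fun r : ℝ => (1 + r) ^ k * Real.exp (-(c / 2) * r ^ 2) := by fun_prop
    obtain ⟨R, hR⟩ := (eventually_atTop.1 (ht.eventually (gt_mem_nhds zero_lt_one)))
    obtain ⟨B, hB⟩ := (isCompact_Icc (a := (0 : ℝ)) (b := max R 0)).exists_bound_of_continuousOn
      hcont.continuousOn
    refine ⟨max B 1, fun r hr => ?_⟩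
    by_cases h : r ≤ max R 0
    · exact (le_abs_self _).trans ((hB r ⟨hr, h⟩).trans (le_max_left _ _))
    · push Not at h
      exact (hR r ((le_max_left _ _).trans h.le)).le.trans (le_max_right _ _)
  refine (hG.const_mul B).mono' (by fun_prop) (ae_of_all _ fun x => ?_)
  rw [Real.norm_of_nonneg (by positivity)]
  have e : Real.exp (-c * ‖x‖ ^ 2) = Real.exp (-(c / 2) * ‖x‖ ^ 2) * Real.exp (-(c / 2) * ‖x‖ ^ 2) := by
    rw [← Real.exp_add]
    ring_nf
  rw [e, ← mul_assoc]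
  exact mul_le_mul_of_nonneg_right (hB _ (norm_nonneg x)) (Real.exp_pos _).le

lemma int_w_Q (k : ℕ) : Integrable fun x : E n => (1 + ‖x‖) ^ k * Real.exp (-Q x) := by
  have := int_w_exp (n := n) k (1 / 2) (by norm_num)
  refine this.congr (ae_of_all _ fun x => ?_)
  simp only [Q_eq]

lemma PG.int_vol {F : E n → ℝ} (hF : PG F) (hm : AEStronglyMeasurable F (volume : Measure (E n))) :
    Integrable fun x => F x * Real.exp (-Q x) := by
  obtain ⟨C, k, hC, h⟩ := hF
  refine ((int_w_Q (n := n) k).const_mul C).mono' ?_ (ae_of_all _ fun x => ?_)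
  · exact hm.mul (by
      have : Continuous fun x : E n => Real.exp (-Q x) := Real.continuous_exp.comp cont_Q.neg
      exact this.aestronglyMeasurable)
  · rw [norm_mul, Real.norm_eq_abs, Real.norm_of_nonneg (Real.exp_pos _).le, ← mul_assoc]
    exact mul_le_mul_of_nonneg_right (h x) (Real.exp_pos _).le

lemma gQ_ac' : (volume : Measure (E n)) ≪ gQ n := by
  refine withDensity_absolutelyContinuous' ?_ (ae_of_all _ fun x => ?_)
  · exact (ENNReal.measurable_ofReal.comp dens_cont.measurable).aemeasurable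
  · exact (ENNReal.ofReal_pos.2 (dens_pos x)).ne'

lemma integrable_gQ_iff {F : E n → ℝ} :
    Integrable F (gQ n) ↔ Integrable (fun x => F x * Real.exp (-Q x)) := by
  have hmeas : Measurable fun z : E n => ENNReal.ofReal (dens z) :=
    ENNReal.measurable_ofReal.comp dens_cont.measurable
  rw [gQ, integrable_withDensity_iff_integrable_smul' hmeas
    (ae_of_all _ fun z => ENNReal.ofReal_lt_top)]
  have e : (fun x : E n => (ENNReal.ofReal (dens x)).toReal • F x)
      = fun x => (∫ z : E n, Real.exp (-Q z))⁻¹ * (F x * Real.exp (-Q x)) := by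
    funext x
    rw [ENNReal.toReal_ofReal (dens_pos x).le, smul_eq_mul, dens]
    ring
  rw [e, integrable_const_mul_iff]
  exact IsUnit.mk0 _ (inv_ne_zero Z_pos.ne')

lemma PG.integrable {F : E n → ℝ} (hF : PG F) (hm : AEStronglyMeasurable F (gQ n)) :
    Integrable F (gQ n) :=
  integrable_gQ_iff.2 (hF.int_vol (hm.mono_ac gQ_ac'))

lemma PG.memLp {F : E n → ℝ} (hF : PG F) (hm : AEStronglyMeasurable F (gQ n)) :
    MemLp F 2 (gQ n) := by
  rw [memLp_two_iff_integrable_sq hm]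
  exact (hF.pow 2).integrable (hm.pow 2)

lemma LG.integrable {F : E n → ℝ} (hF : LG F) : Integrable F (gQ n) :=
  hF.pg.integrable hF.continuous.aestronglyMeasurable

lemma LG.memLp {F : E n → ℝ} (hF : LG F) : MemLp F 2 (gQ n) :=
  hF.pg.memLp hF.continuous.aestronglyMeasurable

end Vale.Agent.P254.SP649
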