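import Vale.Agent.P254.SP.H649.IBP

/-!
# P254, (SP_0): mollification of Lipschitz functions
-/

open MeasureTheory Filter
open scoped ENNReal NNReal Topology Convolution ContDiff

noncomputable section

namespace Vale.Agent.P254.SP649

open Vale.Agent.P227.M Vale.Agent.P254.S Vale.Agent.P254.S130

variable {n : ℕ}

/-- bumps of radius `1 / (m + 1)` -/
def bmp (n m : ℕ) : ContDiffBump (0 : E n) where
  rIn := 1 / (2 * ((m : ℝ) + 1))
  rOut := 1 / ((m : ℝ) + 1)
  rIn_pos := by positivity
  rIn_lt_rOut := by
    apply one_div_lt_one_div_of_lt (by positivity)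
    have : (0 : ℝ) < (m : ℝ) + 1 := by positivity
    linarith

/-- mollified function -/
def mol (f : E n → ℝ) (m : ℕ) : E n → ℝ :=
  ((bmp n m).normed volume ⋆[ContinuousLinearMap.lsmul ℝ ℝ, volume] f)

lemma mol_apply (f : E n → ℝ) (m : ℕ) (x : E n) :
    mol f m x = ∫ t, (bmp n m).normed volume t * f (x - t) := by
  unfold mol
  rw [convolution_def]
  rfl

lemma bmp_rOut_tendsto : Tendsto (fun m => (bmp n m).rOut) atTop (𝓝 0) :=
  tendsto_one_div_add_atTop_nhds_zero_nat

lemma mol_contDiff {f : E n → ℝ} (hf : Continuous f) (m : ℕ) : ContDiff ℝ ∞ (mol f m) := by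
  unfold mol
  exact (bmp n m).hasCompactSupport_normed.contDiff_convolution_left _
    (bmp n m).contDiff_normed hf.locallyIntegrable

lemma mol_tendsto {f : E n → ℝ} (hf : Continuous f) (x : E n) :
    Tendsto (fun m => mol f m x) atTop (𝓝 (f x)) :=
  ContDiffBump.convolution_tendsto_right_of_continuous bmp_rOut_tendsto hf x

lemma int_bmp_mul {f : E n → ℝ} (hf : Continuous f) (m : ℕ) (x : E n) :
    Integrable fun t => (bmp n m).normed volume t * f (x - t) :=
  (((bmp n m).continuous_normed (μ := volume)).mul
    (hf.comp (continuous_const.sub continuous_id))).integrable_of_hasCompactSupport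
      ((bmp n m).hasCompactSupport_normed.mul_right)

lemma mol_lip {f : E n → ℝ} {K : ℝ≥0} (hf : LipschitzWith K f) (m : ℕ) :
    LipschitzWith K (mol f m) := by
  refine LipschitzWith.of_dist_le_mul fun x y => ?_
  rw [Real.dist_eq, mol_apply, mol_apply,
    ← integral_sub (int_bmp_mul hf.continuous m x) (int_bmp_mul hf.continuous m y)]
  have h1 : ∀ t, |(bmp n m).normed volume t * f (x - t) - (bmp n m).normed volume t * f (y - t)|
      ≤ (bmp n m).normed volume t * (K * dist x y) := by
    intro t
    rw [← mul_sub, abs_mul, abs_of_nonneg ((bmp n m).nonneg_normed t)]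
    refine mul_le_mul_of_nonneg_left ?_ ((bmp n m).nonneg_normed t)
    have := hf.dist_le_mul (x - t) (y - t)
    rw [Real.dist_eq] at this
    simpa using this
  calc |∫ t, ((bmp n m).normed volume t * f (x - t) - (bmp n m).normed volume t * f (y - t))|
      ≤ ∫ t, |(bmp n m).normed volume t * f (x - t) - (bmp n m).normed volume t * f (y - t)| :=
        abs_integral_le_integral_abs
    _ ≤ ∫ t, (bmp n m).normed volume t * (K * dist x y) :=
        integral_mono_of_nonneg (ae_of_all _ fun t => abs_nonneg _)
          (((bmp n m).integrable_normed).mul_const _) (ae_of_all _ h1)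
    _ = K * dist x y := by rw [integral_mul_const, (bmp n m).integral_normed, one_mul]

lemma pd_le_lip {f : E n → ℝ} {K : ℝ≥0} (hf : LipschitzWith K f) (i : Fin n) (x : E n) :
    |pd i f x| ≤ K := by
  have h := (fderiv ℝ f x).le_opNorm (ei i)
  rw [norm_ei, mul_one] at h
  exact h.trans (norm_fderiv_le_of_lipschitz ℝ hf)

lemma measurePreserving_sub_left' (x : E n) :
    MeasurePreserving (fun t : E n => x - t) (volume : Measure (E n)) volume := by
  have h1 := Measure.measurePreserving_neg (volume : Measure (E n))
  have h2 := measurePreserving_add_left (volume : Measure (E n)) x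
  have h3 := h2.comp h1
  have e : ((fun t => x + t) ∘ Neg.neg) = fun t : E n => x - t := by
    funext t
    simp [sub_eq_add_neg]
  rwa [e] at h3

lemma mol_pd {f : E n → ℝ} {K : ℝ≥0} (hf : LipschitzWith K f) (m : ℕ) (i : Fin n) (x : E n) :
    pd i (mol f m) x = ∫ t, (bmp n m).normed volume t * pd i f (x - t) := by
  have hd : ∀ᵐ y ∂(volume : Measure (E n)), DifferentiableAt ℝ f y := hf.ae_differentiableAt
  have hd2 : ∀ᵐ t ∂(volume : Measure (E n)), DifferentiableAt ℝ f (x - t) := by
    have hmp : MeasurePreserving (fun t : E n => x - t) volume volume :=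
      measurePreserving_sub_left' x
    exact hmp.quasiMeasurePreserving.ae hd
  have key := hasFDerivAt_integral_of_dominated_loc_of_lip (𝕜 := ℝ) (μ := (volume : Measure (E n)))
    (F := fun x t => (bmp n m).normed volume t * f (x - t))
    (F' := fun t => (bmp n m).normed volume t • fderiv ℝ f (x - t))
    (x₀ := x) (s := Set.univ) (bound := fun t => (bmp n m).normed volume t * K)
    univ_mem
    (Eventually.of_forall fun y => (int_bmp_mul hf.continuous m y).aestronglyMeasurable)
    (int_bmp_mul hf.continuous m x)
    ?_ ?_ (((bmp n m).integrable_normed).mul_const _) ?_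
  · have h2 : HasFDerivAt (mol f m) (∫ t, (bmp n m).normed volume t • fderiv ℝ f (x - t)) x := by
      have e : mol f m = fun y => ∫ t, (bmp n m).normed volume t * f (y - t) :=
        funext fun y => mol_apply f m y
      rw [e]
      exact key.2
    unfold pd
    rw [h2.fderiv, ContinuousLinearMap.integral_apply key.1]
    rfl
  · refine AEStronglyMeasurable.smul ((bmp n m).continuous_normed).aestronglyMeasurable ?_
    exact ((measurable_fderiv ℝ f).comp (measurable_const.sub measurable_id)).aestronglyMeasurable
  · refine ae_of_all _ fun t => ?_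
    refine LipschitzWith.lipschitzOnWith ?_
    refine LipschitzWith.of_dist_le_mul fun y z => ?_
    have h0 := (bmp n m).nonneg_normed (μ := volume) t
    rw [Real.dist_eq, ← mul_sub, abs_mul, abs_of_nonneg h0]
    have h1 := hf.dist_le_mul (y - t) (z - t)
    rw [Real.dist_eq, dist_sub_right] at h1
    have h3 : ((Real.nnabs ((bmp n m).normed volume t * (K : ℝ)) : ℝ≥0) : ℝ)
        = (bmp n m).normed volume t * K := by
      rw [Real.coe_nnabs, abs_of_nonneg (mul_nonneg h0 K.coe_nonneg)]
    rw [h3, mul_assoc]
    exact mul_le_mul_of_nonneg_left h1 h0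
  · filter_upwards [hd2] with t ht
    have h1 : HasFDerivAt (fun y => f (y - t)) (fderiv ℝ f (x - t)) x := by
      exact ht.hasFDerivAt.comp x ((hasFDerivAt_id x).sub_const t)
    exact h1.const_mul _

lemma mol_pd_tendsto {f : E n → ℝ} {K : ℝ≥0} (hf : LipschitzWith K f) :
    ∀ᵐ x ∂(volume : Measure (E n)), ∀ i, Tendsto (fun m => pd i (mol f m) x) atTop (𝓝 (pd i f x)) := by
  rw [ae_all_iff]
  intro i
  have hli : LocallyIntegrable (pd i f) (volume : Measure (E n)) := by
    have hb : LocallyIntegrable (fun _ : E n => (K : ℝ)) (volume : Measure (E n)) :=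
      locallyIntegrable_const _
    refine hb.mono (meas_pd f i).aestronglyMeasurable (ae_of_all _ fun x => ?_)
    rw [Real.norm_eq_abs, Real.norm_of_nonneg K.coe_nonneg]
    exact pd_le_lip hf i x
  have h := ContDiffBump.ae_convolution_tendsto_right_of_locallyIntegrable (μ := (volume : Measure (E n)))
    (φ := fun m => bmp n m) (K := 2) bmp_rOut_tendsto (Eventually.of_forall fun m => by
      show 1 / ((m : ℝ) + 1) ≤ 2 * (1 / (2 * ((m : ℝ) + 1)))
      rw [one_div, one_div, mul_inv]
      have : (0 : ℝ) < ((m : ℝ) + 1)⁻¹ := by positivity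
      linarith) hli
  filter_upwards [h] with x hx
  refine hx.congr fun m => ?_
  rw [mol_pd hf, convolution_def]
  rfl

/-- `|f_m x| ≤ |f 0| + K (‖x‖ + 1)`-type bound -/
lemma mol_bound {f : E n → ℝ} {K : ℝ≥0} (hf : LipschitzWith K f) (m : ℕ) (x : E n) :
    |mol f m x| ≤ (|f 0| + K) * (1 + ‖x‖) + K := by
  have h0 : |mol f m x| ≤ ∫ t, (bmp n m).normed volume t * ((|f 0| + K) * (1 + ‖x‖) + K) := by
    rw [mol_apply]
    refine (abs_integral_le_integral_abs).trans ?_
    refine integral_mono_of_nonneg (ae_of_all _ fun t => abs_nonneg _)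
      (((bmp n m).integrable_normed).mul_const _) (ae_of_all _ fun t => ?_)
    show |(bmp n m).normed volume t * f (x - t)| ≤ _
    have hn := (bmp n m).nonneg_normed (μ := volume) t
    rw [abs_mul, abs_of_nonneg hn]
    by_cases ht : ‖t‖ < (bmp n m).rOut
    · refine mul_le_mul_of_nonneg_left ?_ hn
      have h1 := hf.dist_le_mul (x - t) 0
      rw [Real.dist_eq, dist_zero_right] at h1
      have h2 : ‖x - t‖ ≤ ‖x‖ + 1 := by
        refine (norm_sub_le _ _).trans ?_
        have : (bmp n m).rOut ≤ 1 := by
          show 1 / ((m : ℝ) + 1) ≤ 1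
          rw [div_le_one (by positivity)]
          linarith [Nat.cast_nonneg (α := ℝ) m]
        linarith
      have h3 : |f (x - t)| ≤ |f 0| + |f (x - t) - f 0| := by
        calc |f (x - t)| = |f 0 + (f (x - t) - f 0)| := by rw [add_sub_cancel]
          _ ≤ _ := abs_add_le _ _
      have hK := K.coe_nonneg
      have hx := norm_nonneg x
      have h4 : (K : ℝ) * ‖x - t‖ ≤ K * (‖x‖ + 1) := mul_le_mul_of_nonneg_left h2 hK
      nlinarith [abs_nonneg (f 0), mul_nonneg (abs_nonneg (f 0)) hx]
    · have : (bmp n m).normed volume t = 0 := by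
        have hs := (bmp n m).support_normed_eq (μ := volume)
        by_contra hne
        have : t ∈ Function.support ((bmp n m).normed volume) := hne
        rw [hs] at this
        exact ht (by simpa using this)
      rw [this, zero_mul]
      exact mul_nonneg hn (by positivity)
  rw [integral_mul_const, (bmp n m).integral_normed, one_mul] at h0
  exact h0

end Vale.Agent.P254.SP649
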